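import Vale.Agent.P032.S5.H529.Ray

/-!
# P032: the cusp between `S(y)` and `S(2 z - y)`

`Irr.cusp` : `T y = P ∪ {j}` and `T (2 z - y) = Q ∪ {l}` triples whose letters `P`, `Q` and `j`, `l`
exhaust `T z`; `Q` is exact on the `τ` side of `2 z - y` and `P` occurs in open arcs arbitrarily
near `y` on the same side of the line.  Then `{j, l}` is not the palette of a point of `S(z)`.
-/

open Set Filter Topology Metric

noncomputable section

namespace Vale.Agent.P032.Six

variable {k : ℕ} {U : Fin k → Set ℂ} {T : ℂ → Set (Fin k)}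

namespace Irr

/-- conditions near a point of a half branch -/
theorem hb_at {z v : ℂ} {τ t : ℝ} (hτ : τ = 1 ∨ τ = -1) (hv : dist v z = 1) {P : ℂ → Prop}
    (h1 : ∀ᶠ s : ℝ in 𝓝 t, P (hb z v τ s)) : ∀ᶠ q in 𝓝[sphere z 1] (hb z v τ t), P q := by
  rw [eventually_circle (dist_hb hv τ t)]
  have hc : Tendsto (fun s : ℝ => t + τ * s) (𝓝 0) (𝓝 t) := by
    have : Continuous fun s : ℝ => t + τ * s := by fun_prop
    have h2 := this.tendsto 0
    simpa using h2
  filter_upwards [hc.eventually h1] with s hs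
  have e : z + (hb z v τ t - z) * cis s = hb z v τ (t + τ * s) := by
    have h3 : τ * (t + τ * s) = τ * t + s := by
      rcases hτ with rfl | rfl <;> ring
    unfold hb
    rw [h3, cis_add394]; ring
  rw [e]; exact hs

theorem hb_at' {z v : ℂ} {τ t : ℝ} (hv : dist v z = 1) {P : ℂ → Prop}
    (h1 : ∀ᶠ q in 𝓝[sphere z 1] (hb z v τ t), P q) : ∀ᶠ s : ℝ in 𝓝 t, P (hb z v τ s) := by
  have hc : Continuous fun s : ℝ => hb z v τ s := by
    unfold hb
    exact continuous_const.add (continuous_const.mul (continuous_cis.comp (by fun_prop)))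
  have ht : Tendsto (hb z v τ) (𝓝 t) (𝓝[sphere z 1] (hb z v τ t)) :=
    tendsto_nhdsWithin_iff.2 ⟨hc.tendsto t, Eventually.of_forall fun s => dist_hb hv τ s⟩
  exact ht.eventually h1

/-- an arc of `S(v)` on which all points have all colours of `T v` is impossible -/
theorem no_full_arc (h : Irr U T) {v p : ℂ} (hp : dist p v = 1)
    (hJ : ∀ᶠ q in 𝓝[sphere v 1] p, T v ⊆ T q) : False := by
  have hpS : p ∈ sphere v 1 := hp
  have h1 : T v ⊆ T p := hJ.self_of_nhdsWithin hpS
  obtain ⟨i, hi⟩ := h.ne v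
  have hv : v ∈ XX U := h.mem_XX (x := v) (y := p) (by rw [dist_comm]; exact hp) hi
    (h.sub p (h1 hi))
  have h2 := h.gap_two hv hp (P := T v) (hJ.mono fun q hq i hi => h.sub q (hq hi))
  rw [Set.sdiff_self] at h2
  simp at h2

/-- the second foot of a point of `S(f)` -/
theorem foot_eq {z y f : ℂ} {σ a b : ℝ} (hf : f = hb z y σ a) :
    hb f z (-σ) b + z - f = hb z (2 * z - y) (-σ) (b - a) := by
  have e : cis (-σ * (b - a)) = cis (σ * a) * cis (-σ * b) := by
    rw [← cis_add394]; congr 1; ring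
  rw [hf]
  unfold hb
  rw [e]
  ring

/-- **The cusp lemma.** -/
theorem cusp (h : Irr U T) {z y q0 : ℂ} {j l : Fin k} {P Q : Set (Fin k)} {τ : ℝ}
    (hτ : τ = 1 ∨ τ = -1) (hy : dist y z = 1)
    (h3 : (T y).ncard ≤ 3) (h3' : (T (2 * z - y)).ncard ≤ 3)
    (hKy : ∀ i ∈ T z, i ∈ T y ∨ i ∈ Q ∨ i = l)
    (hKy' : ∀ i ∈ T z, i ∈ T (2 * z - y) ∨ i ∈ P ∨ i = j)
    (hK : ∀ i ∈ T z, i ∈ P ∨ i ∈ Q ∨ i = j ∨ i = l)
    (hQ : ∀ᶠ t : ℝ in 𝓝[>] 0, Q ⊆ Pal U (hb z (2 * z - y) τ t))
    (hP : ∃ᶠ t : ℝ in 𝓝[>] 0, ∀ᶠ q in 𝓝[sphere z 1] (hb z y (-τ) t), P ⊆ Pal U q)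
    (hq0 : dist q0 z = 1) (hT0 : T q0 = {j, l}) : False := by
  have hz : dist z y = 1 := by rw [dist_comm]; exact hy
  set y' : ℂ := 2 * z - y with hy'def
  have hy' : dist y' z = 1 := by
    rw [dist_eq_norm] at hy ⊢
    rw [← hy, ← norm_neg]; congr 1; rw [hy'def]; ring
  have hττ : τ * τ = 1 := by rcases hτ with rfl | rfl <;> norm_num
  have hQ' : ∀ᶠ t : ℝ in 𝓝[>] 0, ∀ᶠ q in 𝓝[sphere z 1] (hb z y' τ t), Q ⊆ Pal U q :=
    hb_ev (P := fun q => Q ⊆ Pal U q) hτ hy' hQ
  -- the branch of `S(y)` has colour `l`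
  have hl : ∀ᶠ t : ℝ in 𝓝[>] 0, l ∈ T (hb y z τ t) := h.branch_mem hτ hy h3 hKy hQ'
  -- a good disc about `z`
  obtain ⟨r, hr, hr2, hball⟩ : ∃ r > 0, r < 1 ∧ ∀ w, dist w z < r →
      T w ⊆ T z ∧ (T q0 ⊆ T w → 4 ≤ (T w).ncard) := by
    obtain ⟨r, hr, hb'⟩ := Metric.eventually_nhds_iff.1 ((h.nhd z).and (h.no_layer hq0))
    exact ⟨min r (1 / 2), by positivity, by
      have := min_le_right r (1 / 2); linarith, fun w hw => hb' (lt_of_lt_of_le hw (min_le_left _ _))⟩
  -- a good parameter interval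
  obtain ⟨t0, ht0, hgood⟩ : ∃ t0 : ℝ, 0 < t0 ∧ ∀ t, 0 < t → t < t0 →
      (∀ᶠ q in 𝓝[sphere z 1] (hb z y' τ t), Q ⊆ Pal U q) ∧ l ∈ T (hb y z τ t) := by
    obtain ⟨ε, hε, hsub⟩ := mem_nhdsGT_iff_exists_Ioo_subset.1 (hQ'.and hl)
    exact ⟨ε, hε, fun t h1 h2 => hsub ⟨h1, h2⟩⟩
  -- distances along the branches
  have hcisb : ∀ s : ℝ, ‖cis s - 1‖ ≤ |s| := by
    intro s
    have := Real.norm_exp_I_mul_ofReal_sub_one_le (x := s)
    unfold cis
    rwa [mul_comm, Real.norm_eq_abs] at this
  have hdist : ∀ (f : ℂ) (s t : ℝ), dist z f = 1 → dist (hb f z s t) z ≤ |s * t| := by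
    intro f s t hf
    have e : hb f z s t - z = (z - f) * (cis (s * t) - 1) := by unfold hb; ring
    rw [dist_eq_norm, e, norm_mul, ← dist_eq_norm, hf, one_mul]
    exact hcisb _
  have habs : ∀ t : ℝ, 0 ≤ t → |τ * t| = t := by
    intro t ht
    rcases hτ with rfl | rfl
    · rw [one_mul, abs_of_nonneg ht]
    · rw [neg_one_mul, abs_neg, abs_of_nonneg ht]
  set m : ℝ := min t0 r with hm
  have hmpos : 0 < m := lt_min ht0 hr
  -- not a proper return to `z`
  have hne : ∀ (f : ℂ) (t : ℝ), dist z f = 1 → 0 < t → t < 1 → hb f z τ t ≠ z := by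
    intro f t hf ht ht1 hcon
    have h5 : (z - f) * (cis (τ * t) - 1) = 0 := by
      have : f + (z - f) * cis (τ * t) = z := hcon
      linear_combination this
    rcases mul_eq_zero.1 h5 with h6 | h6
    · rw [dist_eq_norm, h6, norm_zero] at hf
      exact zero_ne_one hf
    · have h7 : cis (τ * t) = 1 := by linear_combination h6
      have h8 : Real.sin (τ * t) = 0 := by
        have := congrArg Complex.im h7
        unfold cis at this
        rw [Complex.exp_ofReal_mul_I_im] at this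
        simpa using this
      have h9 : Real.sin t = 0 := by
        rcases hτ with rfl | rfl
        · simpa using h8
        · simpa using h8
      have := Real.sin_pos_of_pos_of_lt_pi ht (by linarith [Real.pi_gt_three])
      linarith
  -- a point near `z` with an exact foot has no colour of the foot
  have hfoot : ∀ (R : Set (Fin k)) (q w : ℂ), dist q z = 1 → dist q w = 1 → w ≠ z → dist w z < 1 →
      (∀ᶠ q' in 𝓝[sphere z 1] q, R ⊆ Pal U q') → ∀ i ∈ R, i ∉ Pal U w := by
    intro R q w hq hqw hwz hwz1 hR i hi hiw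
    rcases h.mx.partner_line (u := z) (p := q) (t := i) hq (hR.mono fun q' hq' => hq' hi) hqw
      hiw with h4 | h4
    · exact hwz h4
    · have h5 : w - z = 2 * (q - z) := by linear_combination h4
      have h6 : dist w z = 2 := by
        rw [dist_eq_norm, h5, norm_mul, ← dist_eq_norm, hq]; simp
      linarith
  -- inside the cusp: one colour along `S(f)`
  have hcusp : ∀ α : ℝ, 0 < α → α < m →
      (∀ᶠ q in 𝓝[sphere z 1] (hb z y (-τ) α), P ⊆ Pal U q) →
      ∀ t, α < t → t < m → (T (hb (hb z y (-τ) α) z τ t) = {j} ∨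
        T (hb (hb z y (-τ) α) z τ t) = {l}) := by
    intro α hα hαm hPα t hαt htm
    set f := hb z y (-τ) α with hf
    have hfz : dist f z = 1 := dist_hb hy _ _
    have hzf : dist z f = 1 := by rw [dist_comm]; exact hfz
    set w := hb f z τ t with hw
    have ht1 : t < 1 := by linarith [min_le_right t0 r]
    have hwz : w ≠ z := hne f t hzf (by linarith) ht1
    have hwd : dist w z ≤ t := by
      have := hdist f τ t hzf
      rwa [habs t (by linarith)] at this
    have hwr : dist w z < r := by linarith [min_le_right t0 r]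
    have hfw : dist f w = 1 := by rw [dist_comm]; exact dist_hb hzf _ _
    have h1 := hfoot P f w hfz hfw hwz (by linarith) hPα
    have hsec : w + z - f = hb z y' τ (t - α) := by
      have := foot_eq (z := z) (y := y) (f := f) (σ := -τ) (a := α) (b := t) hf
      rwa [neg_neg] at this
    have hq1 : dist (hb z y' τ (t - α)) w = 1 := by
      rw [← hsec, dist_eq_norm]
      rw [dist_eq_norm, ← norm_neg] at hfz
      rw [← hfz]; congr 1; ring
    have h2 := hfoot Q (hb z y' τ (t - α)) w (dist_hb hy' _ _) hq1 hwz (by linarith)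
      (hgood (t - α) (by linarith) (by linarith [min_le_left t0 r])).1
    obtain ⟨hsub, hlay⟩ := hball w hwr
    have h5 : T w ⊆ {j, l} := by
      intro i hi
      rcases hK i (hsub hi) with h6 | h6 | h6 | h6
      · exact absurd (h.sub w hi) (h1 i h6)
      · exact absurd (h.sub w hi) (h2 i h6)
      · exact Or.inl h6
      · exact Or.inr h6
    have h6 : ¬ ({j, l} : Set (Fin k)) ⊆ T w := by
      intro h7
      have h8 := hlay (by rw [hT0]; exact h7)
      have h9 := Set.ncard_le_ncard h5 (Set.toFinite _)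
      have h10 := Set.ncard_insert_le j ({l} : Set (Fin k))
      rw [Set.ncard_singleton] at h10
      omega
    obtain ⟨i, hi⟩ := h.ne w
    by_cases hj : j ∈ T w
    · left
      refine Subset.antisymm (fun i' hi' => ?_) (by rintro i' rfl; exact hj)
      rcases h5 hi' with h7 | h7
      · exact h7
      · rw [mem_singleton_iff] at h7
        exact absurd (by rintro i'' (rfl | rfl) <;> [exact hj; exact h7 ▸ hi']) h6
    · right
      refine Subset.antisymm (fun i' hi' => ?_) ?_
      · rcases h5 hi' with h7 | h7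
        · exact absurd (h7 ▸ hi') hj
        · exact h7
      · rintro i' rfl
        rcases h5 hi with h7 | h7
        · exact absurd (h7 ▸ hi) hj
        · rw [mem_singleton_iff] at h7
          exact h7 ▸ hi
  -- the colour is constant along `S(f)` inside the cusp
  have hconst : ∀ α : ℝ, 0 < α → α < m →
      (∀ᶠ q in 𝓝[sphere z 1] (hb z y (-τ) α), P ⊆ Pal U q) → ∀ c : Fin k,
      (∃ t, α < t ∧ t < m ∧ T (hb (hb z y (-τ) α) z τ t) = {c}) →
      ∀ t, α < t → t < m → T (hb (hb z y (-τ) α) z τ t) = {c} := by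
    intro α hα hαm hPα c hc t hαt htm
    set f := hb z y (-τ) α with hf
    obtain ⟨t1, ht1, ht1m, hT1⟩ := hc
    have hcont : Continuous fun s : ℝ => hb f z τ s := by
      unfold hb
      exact continuous_const.add (continuous_const.mul (continuous_cis.comp (by fun_prop)))
    have hA : IsClosed {s : ℝ | j ∈ T (hb f z τ s)} := (h.closed j).preimage hcont
    have hB : IsClosed {s : ℝ | l ∈ T (hb f z τ s)} := (h.closed l).preimage hcont
    have hcov : Ioo α m ⊆ {s : ℝ | j ∈ T (hb f z τ s)} ∪ {s : ℝ | l ∈ T (hb f z τ s)} := by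
      intro s hs
      rcases hcusp α hα hαm hPα s hs.1 hs.2 with h5 | h5
      · left; show j ∈ T (hb f z τ s); rw [h5]; rfl
      · right; show l ∈ T (hb f z τ s); rw [h5]; rfl
    have hpre := isPreconnected_closed_iff.1 (isPreconnected_Ioo (a := α) (b := m)) _ _ hA hB hcov
    have hboth : (∃ s ∈ Ioo α m, T (hb f z τ s) = {j}) → (∃ s ∈ Ioo α m, T (hb f z τ s) = {l}) →
        j = l := by
      rintro ⟨s1, hs1, hj1⟩ ⟨s2, hs2, hl2⟩
      obtain ⟨s3, hs3, hs3j, hs3l⟩ := hpre
        ⟨s1, hs1, by show j ∈ T (hb f z τ s1); rw [hj1]; rfl⟩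
        ⟨s2, hs2, by show l ∈ T (hb f z τ s2); rw [hl2]; rfl⟩
      have hs3j' : j ∈ T (hb f z τ s3) := hs3j
      have hs3l' : l ∈ T (hb f z τ s3) := hs3l
      rcases hcusp α hα hαm hPα s3 hs3.1 hs3.2 with h5 | h5
      · rw [h5] at hs3l'
        exact hs3l'.symm
      · rw [h5] at hs3j'
        exact hs3j'
    have h6 := hcusp α hα hαm hPα t1 ht1 ht1m
    have h7 := hcusp α hα hαm hPα t hαt htm
    rw [← hf] at h6 h7
    rw [hT1] at h6
    rcases h6 with h6 | h6 <;> rcases h7 with h7 | h7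
    · rw [h7, h6]
    · have := hboth ⟨t1, ⟨ht1, ht1m⟩, by rw [hT1, h6]⟩ ⟨t, ⟨hαt, htm⟩, h7⟩
      rw [h7, h6, this]
    · have := hboth ⟨t, ⟨hαt, htm⟩, h7⟩ ⟨t1, ⟨ht1, ht1m⟩, by rw [hT1, h6]⟩
      rw [h7, h6, this]
    · rw [h7, h6]
  -- arbitrarily near `y` the colour is `j`
  have hfreq : ∃ᶠ α : ℝ in 𝓝[>] 0, 0 < α ∧ α < m ∧
      ∀ t, α < t → t < m → T (hb (hb z y (-τ) α) z τ t) = {j} := by
    intro hcon
    obtain ⟨ε, hε, hsub⟩ := mem_nhdsGT_iff_exists_Ioo_subset.1 hcon
    have hε' : (0 : ℝ) < ε := hε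
    obtain ⟨α0, hα0, hα0m⟩ := (hP.and_eventually
      (Ioo_mem_nhdsGT (show (0 : ℝ) < min ε m from lt_min hε' hmpos))).exists
    have hα0ε : α0 < ε := lt_of_lt_of_le hα0m.2 (min_le_left _ _)
    have hα0m' : α0 < m := lt_of_lt_of_le hα0m.2 (min_le_right _ _)
    have hτ' : -τ = 1 ∨ -τ = -1 := by rcases hτ with rfl | rfl <;> norm_num
    have hzy' : dist z y' = 1 := by rw [dist_comm]; exact hy'
    -- all nearby parameters are good
    have hnear : ∀ᶠ s : ℝ in 𝓝 α0, (∀ᶠ q in 𝓝[sphere z 1] (hb z y (-τ) s), P ⊆ Pal U q) ∧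
        0 < s ∧ s < m ∧ s < ε := by
      have h5 := eventually_eventually_nhdsWithin.2 hα0
      have h6 := hb_at' hy h5
      exact h6.and ((lt_mem_nhds hα0m.1).and ((gt_mem_nhds hα0m').and (gt_mem_nhds hα0ε)))
    -- `S(y')` near the entry points
    have hentry : ∀ s : ℝ, hb (hb z y (-τ) s) z τ s = hb y' z (-τ) s := by
      intro s
      have e1 : cis (τ * s) * cis (-τ * s) = 1 := by
        rw [← cis_add394, show τ * s + -τ * s = 0 by ring, cis_zero394]
      have e2 : hb (hb z y (-τ) s) z τ s =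
          z + (y - z) * cis (-τ * s) + (z - y) * (cis (τ * s) * cis (-τ * s)) := by
        unfold hb; ring
      rw [e2, e1, hb, hy'def]; ring
    have hprop : ∀ᶠ s : ℝ in 𝓝 α0, j ∈ T (hb y' z (-τ) s) ∧
        (l ∈ T (hb y' z (-τ) s) → T y' ⊆ T (hb y' z (-τ) s)) := by
      filter_upwards [hnear] with s hs
      obtain ⟨hs1, hs2, hs3, -⟩ := hs
      set w := hb y' z (-τ) s with hw
      have hs1' : s < 1 := by linarith [min_le_right t0 r]
      have hwy' : dist w y' = 1 := dist_hb hzy' _ _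
      have hwz : w ≠ z := by
        rw [hw, ← hentry s]
        exact hne _ s (by rw [dist_comm]; exact dist_hb hy _ _) hs2 hs1'
      have hwd : dist w z ≤ s := by
        have h5 := hdist y' (-τ) s hzy'
        rwa [neg_mul, abs_neg, habs s hs2.le] at h5
      have hwr : dist w z < r := by linarith [min_le_right t0 r]
      obtain ⟨hsub', hlay⟩ := hball w hwr
      have hqw : dist (hb z y (-τ) s) w = 1 := by
        rw [dist_comm, hw, ← hentry s]
        exact dist_hb (by rw [dist_comm]; exact dist_hb hy _ _) _ _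
      have h1 := hfoot P (hb z y (-τ) s) w (dist_hb hy _ _) hqw hwz (by linarith) hs1
      have hj : j ∈ T w := by
        obtain ⟨i, hi, hiy⟩ := h.not_sub' (x := y') (y := w) hwy' h3'
        rcases hKy' i (hsub' hi) with h6 | h6 | h6
        · exact absurd h6 hiy
        · exact absurd (h.sub w hi) (h1 i h6)
        · exact h6 ▸ hi
      refine ⟨hj, fun hl' => ?_⟩
      have h4 := hlay (by rw [hT0]; rintro i (rfl | rfl) <;> [exact hj; exact hl'])
      have h5 : T w ⊆ insert j (T y') := by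
        intro i hi
        rcases hKy' i (hsub' hi) with h6 | h6 | h6
        · exact Or.inr h6
        · exact absurd (h.sub w hi) (h1 i h6)
        · exact Or.inl h6
      have h6 : (insert j (T y')).ncard ≤ 4 := by
        have := Set.ncard_insert_le j (T y')
        omega
      have h7 : T w = insert j (T y') :=
        Set.eq_of_subset_of_ncard_le h5 (by omega) (Set.toFinite _)
      rw [h7]
      exact Set.subset_insert _ _
    -- an entry point without `l`
    obtain ⟨s, hs, hsl⟩ : ∃ s : ℝ, ((∀ᶠ q in 𝓝[sphere z 1] (hb z y (-τ) s), P ⊆ Pal U q) ∧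
        0 < s ∧ s < m ∧ s < ε) ∧ l ∉ T (hb y' z (-τ) s) := by
      by_contra hno
      push Not at hno
      refine h.no_full_arc (v := y') (p := hb y' z (-τ) α0) (dist_hb hzy' _ _) ?_
      refine hb_at hτ' hzy' ?_
      filter_upwards [hprop, hnear] with s' h5 h6
      exact h5.2 (hno s' h6)
    obtain ⟨hs1, hs2, hs3, hs4⟩ := hs
    refine hsub ⟨hs2, hs4⟩ ⟨hs2, hs3, hconst s hs2 hs3 hs1 j ?_⟩
    -- just after the entry
    have hcont : Continuous fun s' : ℝ => hb (hb z y (-τ) s) z τ s' := by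
      unfold hb
      exact continuous_const.add (continuous_const.mul (continuous_cis.comp (by fun_prop)))
    have hopen : ∀ᶠ s' in 𝓝 s, l ∉ T (hb (hb z y (-τ) s) z τ s') := by
      refine hcont.continuousAt.eventually ((h.closed l).isOpen_compl.mem_nhds ?_)
      show ¬ l ∈ T (hb (hb z y (-τ) s) z τ s)
      rw [hentry s]; exact hsl
    obtain ⟨s', hs', hs'2⟩ := ((hopen.filter_mono nhdsWithin_le_nhds).and
      (Ioo_mem_nhdsGT hs3)).exists
    refine ⟨s', hs'2.1, hs'2.2, ?_⟩
    rcases hcusp s hs2 hs3 hs1 s' hs'2.1 hs'2.2 with h5 | h5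
    · exact h5
    · exact absurd (by rw [h5]; rfl) hs'
  -- `j` on the branch of `S(y)`
  have hjb : ∀ t, 0 < t → t < m → j ∈ T (hb y z τ t) := by
    intro t ht htm
    have hcf : Continuous fun α : ℝ => hb (hb z y (-τ) α) z τ t := by
      unfold hb
      have hc1 : Continuous fun α : ℝ => cis (-τ * α) := continuous_cis.comp (by fun_prop)
      fun_prop
    have h0 : hb (hb z y (-τ) 0) z τ t = hb y z τ t := by
      have : hb z y (-τ) 0 = y := by unfold hb; rw [mul_zero, cis_zero394]; ring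
      rw [this]
    by_contra hcon
    have h5 : ∀ᶠ α : ℝ in 𝓝 0, j ∉ T (hb (hb z y (-τ) α) z τ t) := by
      refine hcf.continuousAt.eventually ((h.closed j).isOpen_compl.mem_nhds ?_)
      show ¬ j ∈ T (hb (hb z y (-τ) 0) z τ t)
      rw [h0]; exact hcon
    obtain ⟨α, ⟨hα1, hα2, hα3⟩, hα4, hα5⟩ := (hfreq.and_eventually
      ((h5.filter_mono nhdsWithin_le_nhds).and (Ioo_mem_nhdsGT ht))).exists
    exact hα4 (by rw [hα3 t hα5.2 htm]; rfl)
  -- the end
  have hfull : ∀ᶠ t : ℝ in 𝓝[>] 0, T y ⊆ T (hb y z τ t) := by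
    filter_upwards [Ioo_mem_nhdsGT hmpos] with t ht
    set w := hb y z τ t with hw
    have ht1 : t < 1 := by linarith [min_le_right t0 r, ht.2]
    have hwz : w ≠ z := hne y t hz ht.1 ht1
    have hwd : dist w z ≤ t := by
      have := hdist y τ t hz
      rwa [habs t ht.1.le] at this
    have hwr : dist w z < r := by linarith [min_le_right t0 r, ht.2]
    obtain ⟨hsub, hlay⟩ := hball w hwr
    have hsec : w + z - y = hb z y' τ t := by
      rw [hw, hy'def]; unfold hb; ring
    have hq1 : dist (hb z y' τ t) w = 1 := by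
      rw [← hsec, dist_eq_norm]
      rw [dist_eq_norm, ← norm_neg] at hy
      rw [← hy]; congr 1; ring
    have ht0' : t < t0 := lt_of_lt_of_le ht.2 (min_le_left _ _)
    have h2 := hfoot Q (hb z y' τ t) w (dist_hb hy' _ _) hq1 hwz (by linarith) (hgood t ht.1 ht0').1
    have h4 := hlay (by
      rw [hT0]
      rintro i (rfl | rfl)
      · exact hjb t ht.1 ht.2
      · exact (hgood t ht.1 ht0').2)
    have h5 : T w ⊆ insert l (T y) := by
      intro i hi
      rcases hKy i (hsub hi) with h6 | h6 | h6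
      · exact Or.inr h6
      · exact absurd (h.sub w hi) (h2 i h6)
      · exact Or.inl h6
    have h6 : (insert l (T y)).ncard ≤ 4 := by
      have := Set.ncard_insert_le l (T y)
      omega
    have h7 : T w = insert l (T y) :=
      Set.eq_of_subset_of_ncard_le h5 (by omega) (Set.toFinite _)
    rw [h7]
    exact Set.subset_insert _ _
  obtain ⟨t, ht⟩ := (hb_ev (P := fun q => T y ⊆ T q) hτ hz hfull).exists
  exact h.no_full_arc (dist_hb hz _ _) ht

end Irr

end Vale.Agent.P032.Six
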