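import Vale.Agent.P032.S5.H360.Solid
import Vale.Agent.P032.S5.H225.Germ
import Vale.Agent.P032.S5.H394.Ends

/-!
# P032: curves of one colour leaving a point, and the branches of `S(y)` at an event

`Irr.curve_sign` : an `x`-curve from `z` towards `p` and an `x`-curve from `z` away from `p`
exclude `x ∈ T p`, for `p` on the unit circle about `z`.
`Irr.curve_pair` : `T p ⊆ {x, q}` excludes an `x`-curve and a `q`-curve on the same side.
`Irr.ray_mem`, `Irr.branch_mem` : the half branch of `S(y)` at `z`, `T y` a triple, has the colour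
of `T z` which is neither in `T y` nor in the letter of `S(z)` at the second foot.
`Irr.gap3`, `Irr.gap33` : corollaries.
-/

open Set Filter Topology Metric

noncomputable section

namespace Vale.Agent.P032.Six

variable {k : ℕ} {U : Fin k → Set ℂ} {T : ℂ → Set (Fin k)}

/-- a curve of colour `x` leaving `z`, with end `g t0` -/
structure XCur (U : Fin k → Set ℂ) (z : ℂ) (x : Fin k) (g : ℝ → ℂ) (t0 : ℝ) : Prop where
  pos : 0 < t0
  cont : ContinuousOn g (Icc 0 t0)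
  zero : g 0 = z
  mem : ∀ t, 0 < t → t ≤ t0 → x ∈ Pal U (g t)

namespace Irr

theorem curve_out (h : Irr U T) {z p : ℂ} {x : Fin k} {g : ℝ → ℂ} {t0 : ℝ}
    (hg : XCur U z x g t0) (hlt : dist p (g t0) < 1) :
    ∀ᶠ v in 𝓝 p, 1 < dist v z → v ∉ U x := by
  have hev : ∀ᶠ v in 𝓝 p, dist v (g t0) < 1 :=
    (continuous_id.dist continuous_const).continuousAt.eventually_lt continuousAt_const hlt
  filter_upwards [hev] with v hv hvz hvU
  have hcont : ContinuousOn (fun t : ℝ => dist v (g t)) (Icc 0 t0) :=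
    (continuous_const.dist continuous_id).comp_continuousOn hg.cont
  obtain ⟨t, ht, hte⟩ := intermediate_value_Icc' hg.pos.le hcont
    (show (1 : ℝ) ∈ Icc (dist v (g t0)) (dist v (g 0)) from ⟨hv.le, by rw [hg.zero]; exact hvz.le⟩)
  have ht' : 0 < t := by
    rcases ht.1.lt_or_eq with h3 | h3
    · exact h3
    · exfalso
      have hte' : dist v (g t) = 1 := hte
      rw [← h3, hg.zero] at hte'
      linarith
  exact h.mx.notMem' hvU hte (hg.mem t ht' ht.2)

theorem curve_in (h : Irr U T) {z p : ℂ} {x : Fin k} {g : ℝ → ℂ} {t0 : ℝ}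
    (hg : XCur U z x g t0) (hlt : 1 < dist p (g t0)) :
    ∀ᶠ v in 𝓝 p, dist v z < 1 → v ∉ U x := by
  have hev : ∀ᶠ v in 𝓝 p, 1 < dist v (g t0) :=
    continuousAt_const.eventually_lt (continuous_id.dist continuous_const).continuousAt hlt
  filter_upwards [hev] with v hv hvz hvU
  have hcont : ContinuousOn (fun t : ℝ => dist v (g t)) (Icc 0 t0) :=
    (continuous_const.dist continuous_id).comp_continuousOn hg.cont
  obtain ⟨t, ht, hte⟩ := intermediate_value_Icc hg.pos.le hcont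
    (show (1 : ℝ) ∈ Icc (dist v (g 0)) (dist v (g t0)) from ⟨by rw [hg.zero]; exact hvz.le, hv.le⟩)
  have ht' : 0 < t := by
    rcases ht.1.lt_or_eq with h3 | h3
    · exact h3
    · exfalso
      have hte' : dist v (g t) = 1 := hte
      rw [← h3, hg.zero] at hte'
      linarith
  exact h.mx.notMem' hvU hte (hg.mem t ht' ht.2)

/-- an open condition at a point of the circle holds at points outside and at points inside -/
theorem exists_out {z w : ℂ} (hwz : dist w z = 1) {P : ℂ → Prop} (hP : ∀ᶠ v in 𝓝 w, P v) :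
    (∃ v, 1 < dist v z ∧ P v) ∧ ∃ v, dist v z < 1 ∧ P v := by
  have hc : Continuous fun s : ℝ => z + ((1 + s : ℝ) : ℂ) * (w - z) := by fun_prop
  have hd : ∀ s : ℝ, dist (z + ((1 + s : ℝ) : ℂ) * (w - z)) z = |1 + s| := by
    intro s
    rw [dist_eq_norm, add_sub_cancel_left, norm_mul, ← dist_eq_norm, hwz, mul_one,
      Complex.norm_real, Real.norm_eq_abs]
  have h0 : z + ((1 + (0 : ℝ) : ℝ) : ℂ) * (w - z) = w := by push_cast; ring
  have ht : Tendsto (fun s : ℝ => z + ((1 + s : ℝ) : ℂ) * (w - z)) (𝓝 0) (𝓝 w) := by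
    have := hc.tendsto 0
    rwa [h0] at this
  constructor
  · obtain ⟨s, hs, hs0⟩ := (((ht.mono_left nhdsWithin_le_nhds).eventually hP).and
      (self_mem_nhdsWithin (s := Ioi (0 : ℝ)))).exists
    have hs0' : (0 : ℝ) < s := hs0
    exact ⟨_, by rw [hd, abs_of_pos (by linarith)]; linarith, hs⟩
  · have hI : ∀ᶠ s : ℝ in 𝓝[<] 0, -1 < s :=
      (mem_nhdsWithin_of_mem_nhds (Ioi_mem_nhds (by norm_num)))
    obtain ⟨s, ⟨hs, hs1⟩, hs0⟩ := ((((ht.mono_left nhdsWithin_le_nhds).eventually hP).and hI).and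
      (self_mem_nhdsWithin (s := Iio (0 : ℝ)))).exists
    have hs0' : s < (0 : ℝ) := hs0
    exact ⟨_, by rw [hd, abs_of_pos (by linarith)]; linarith, hs⟩

/-- **Sign rule for curves**, for points in the closure of `U x`. -/
theorem curve_sign' (h : Irr U T) {z p : ℂ} {x : Fin k} {g g' : ℝ → ℂ} {t0 t1 : ℝ}
    (hg : XCur U z x g t0) (hg' : XCur U z x g' t1) (hp : x ∈ Pal U p)
    (h1 : dist p (g t0) < 1) (h2 : 1 < dist p (g' t1)) : False := by
  obtain ⟨w, hwU, hw1, hw2⟩ := ((mem_closure_iff_frequently.1 hp).and_eventually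
    ((h.curve_out hg h1).eventually_nhds.and (h.curve_in hg' h2).eventually_nhds)).exists
  have hmem := (h.mx.isOpen x).mem_nhds hwU
  rcases lt_trichotomy (dist w z) 1 with h3 | h3 | h3
  · exact hw2.self_of_nhds h3 hwU
  · obtain ⟨v, hv, hv1, hv2⟩ := (exists_out h3 (hw1.and hmem)).1
    exact hv1 hv hv2
  · exact hw1.self_of_nhds h3 hwU

/-- **Sign rule for curves.** -/
theorem curve_sign (h : Irr U T) {z p : ℂ} {x : Fin k} {g g' : ℝ → ℂ} {t0 t1 : ℝ}
    (hg : XCur U z x g t0) (hg' : XCur U z x g' t1) (hp : x ∈ T p)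
    (h1 : dist p (g t0) < 1) (h2 : 1 < dist p (g' t1)) : False :=
  h.curve_sign' hg hg' (h.sub p hp) h1 h2

/-- **No side without a colour.** Near a point `p` of the circle, each side has points in some
`U i`, `i ∈ T p`. -/
theorem side_out (h : Irr U T) {z p : ℂ} (hpz : dist p z = 1)
    (hS : ∀ i ∈ T p, ∀ᶠ v in 𝓝 p, 1 < dist v z → v ∉ U i) : False := by
  have h1 : ∀ᶠ v in 𝓝 p, ∀ i ∈ T p, 1 < dist v z → v ∉ U i :=
    (Filter.eventually_all.2 fun i => by
      by_cases hi : i ∈ T p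
      · exact (hS i hi).mono fun v hv _ => hv
      · exact Eventually.of_forall fun v hi' => absurd hi' hi)
  obtain ⟨v, hv, hv1, hv2⟩ := (exists_out hpz (h1.eventually_nhds.and
    (h.nhd p).eventually_nhds)).1
  obtain ⟨i, hi⟩ := h.ne v
  have ho : ∀ᶠ w in 𝓝 v, 1 < dist w z :=
    continuousAt_const.eventually_lt (continuous_id.dist continuous_const).continuousAt hv
  obtain ⟨w, hw, hw1, hw2, hw3⟩ := ((h.pure v i hi).and_eventually
    (hv1.and (hv2.and ho))).exists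
  exact hw1 i (hw2 (by rw [hw]; rfl)) hw3 (h.mem_of_single (by rw [hw]))

theorem side_in (h : Irr U T) {z p : ℂ} (hpz : dist p z = 1)
    (hS : ∀ i ∈ T p, ∀ᶠ v in 𝓝 p, dist v z < 1 → v ∉ U i) : False := by
  have h1 : ∀ᶠ v in 𝓝 p, ∀ i ∈ T p, dist v z < 1 → v ∉ U i :=
    (Filter.eventually_all.2 fun i => by
      by_cases hi : i ∈ T p
      · exact (hS i hi).mono fun v hv _ => hv
      · exact Eventually.of_forall fun v hi' => absurd hi' hi)
  obtain ⟨v, hv, hv1, hv2⟩ := (exists_out hpz (h1.eventually_nhds.and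
    (h.nhd p).eventually_nhds)).2
  obtain ⟨i, hi⟩ := h.ne v
  have ho : ∀ᶠ w in 𝓝 v, dist w z < 1 :=
    (continuous_id.dist continuous_const).continuousAt.eventually_lt continuousAt_const hv
  obtain ⟨w, hw, hw1, hw2, hw3⟩ := ((h.pure v i hi).and_eventually
    (hv1.and (hv2.and ho))).exists
  exact hw1 i (hw2 (by rw [hw]; rfl)) hw3 (h.mem_of_single (by rw [hw]))

/-- **An `x`-curve and a `q`-curve towards `p` exclude `T p ⊆ {x, q}`.** -/
theorem curve_pair_out (h : Irr U T) {z p : ℂ} {x q : Fin k} {g g' : ℝ → ℂ} {t0 t1 : ℝ}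
    (hpz : dist p z = 1) (hg : XCur U z x g t0) (hg' : XCur U z q g' t1) (hp : T p ⊆ {x, q})
    (h1 : dist p (g t0) < 1) (h2 : dist p (g' t1) < 1) : False := by
  refine h.side_out hpz fun i hi => ?_
  rcases hp hi with rfl | h3
  · exact h.curve_out hg h1
  · rw [mem_singleton_iff] at h3
    rw [h3]
    exact h.curve_out hg' h2

/-- **An `x`-curve and a `q`-curve away from `p` exclude `T p ⊆ {x, q}`.** -/
theorem curve_pair_in (h : Irr U T) {z p : ℂ} {x q : Fin k} {g g' : ℝ → ℂ} {t0 t1 : ℝ}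
    (hpz : dist p z = 1) (hg : XCur U z x g t0) (hg' : XCur U z q g' t1) (hp : T p ⊆ {x, q})
    (h1 : 1 < dist p (g t0)) (h2 : 1 < dist p (g' t1)) : False := by
  refine h.side_in hpz fun i hi => ?_
  rcases hp hi with rfl | h3
  · exact h.curve_in hg h1
  · rw [mem_singleton_iff] at h3
    rw [h3]
    exact h.curve_in hg' h2

/-- **Ray fact, at one point.** `w ∈ S(y)` near `z`, second foot `w + z - y` on `S(z)`. -/
theorem ray_mem (h : Irr U T) {z y w : ℂ} {Q : Set (Fin k)} (hy : dist y z = 1)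
    (h3 : (T y).ncard ≤ 3) (hw : dist w y = 1) (hwz : w ≠ z) (hw2 : dist w z < 2)
    (hQ : ∀ᶠ q in 𝓝[sphere z 1] (w + z - y), Q ⊆ Pal U q) :
    (∀ i ∈ Q, i ∉ Pal U w) ∧ ∃ x ∈ T w, x ∉ T y ∧ x ∉ Q := by
  have hq : dist (w + z - y) z = 1 := by
    rw [dist_eq_norm] at hw ⊢
    rw [← hw]; congr 1; ring
  have hqw : dist (w + z - y) w = 1 := by
    rw [dist_eq_norm] at hy ⊢
    rw [← hy, ← norm_neg]; congr 1; ring
  have key : ∀ i ∈ Q, i ∉ Pal U w := by
    intro i hi hiw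
    rcases h.mx.partner_line (u := z) (p := w + z - y) (t := i) hq (hQ.mono fun q hq' => hq' hi) hqw
      hiw with h4 | h4
    · exact hwz h4
    · have h5 : w - z = 2 * (w + z - y - z) := by linear_combination h4
      have h6 : dist w z = 2 := by
        rw [dist_eq_norm, h5, norm_mul, ← dist_eq_norm, hq]; simp
      linarith
  refine ⟨key, ?_⟩
  obtain ⟨x, hx, hxy⟩ := h.not_sub' (x := y) (y := w) hw h3
  exact ⟨x, hx, hxy, fun hxQ => key x hxQ (h.sub w hx)⟩

/-- **Ray fact.** The half branch `τ` of `S(y)` at `z`. -/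
theorem branch_mem (h : Irr U T) {z y : ℂ} {x : Fin k} {Q : Set (Fin k)} {τ : ℝ}
    (hτ : τ = 1 ∨ τ = -1) (hy : dist y z = 1) (h3 : (T y).ncard ≤ 3)
    (hK : ∀ i ∈ T z, i ∈ T y ∨ i ∈ Q ∨ i = x)
    (hQ : ∀ᶠ t : ℝ in 𝓝[>] 0, ∀ᶠ q in 𝓝[sphere z 1] (hb z (2 * z - y) τ t), Q ⊆ Pal U q) :
    ∀ᶠ t : ℝ in 𝓝[>] 0, x ∈ T (hb y z τ t) := by
  have hz : dist z y = 1 := by rw [dist_comm]; exact hy
  have ht := tendsto_hb y z τ
  have hne : ∀ᶠ t : ℝ in 𝓝[>] 0, hb y z τ t ≠ z := by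
    filter_upwards [Ioo_mem_nhdsGT (show (0 : ℝ) < 1 by norm_num)] with t ht1 hcon
    have h5 : (z - y) * (cis (τ * t) - 1) = 0 := by
      have : y + (z - y) * cis (τ * t) = z := hcon
      linear_combination this
    rcases mul_eq_zero.1 h5 with h6 | h6
    · rw [dist_eq_norm, h6, norm_zero] at hz
      exact zero_ne_one hz
    · have h7 : cis (τ * t) = 1 := by linear_combination h6
      have h8 : Real.sin (τ * t) = 0 := by
        have := congrArg Complex.im h7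
        unfold cis at this
        rw [Complex.exp_ofReal_mul_I_im] at this
        simpa using this
      have h9 : Real.sin t = 0 := by
        rcases hτ with rfl | rfl
        · simpa using h8
        · simpa using h8
      have := Real.sin_pos_of_pos_of_lt_pi ht1.1 (by linarith [ht1.2, Real.pi_gt_three])
      linarith
  filter_upwards [hQ, hne, ht.eventually (h.nhd z), ht.eventually (ball_mem_nhds z two_pos)]
    with t h4 h5 h6 h7
  have hfoot : hb y z τ t + z - y = hb z (2 * z - y) τ t := by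
    unfold hb; ring
  obtain ⟨-, i, hi, hiy, hiQ⟩ := h.ray_mem (w := hb y z τ t) hy h3 (dist_hb hz τ t) h5 h7
    (by rw [hfoot]; exact h4)
  rcases hK i (h6 hi) with h8 | h8 | h8
  · exact absurd h8 hiy
  · exact absurd h8 hiQ
  · exact h8 ▸ hi

/-- the half branch as a curve -/
theorem branch_cur (h : Irr U T) {z y : ℂ} {x : Fin k} {τ : ℝ}
    (hx : ∀ᶠ t : ℝ in 𝓝[>] 0, x ∈ T (hb y z τ t)) {P : ℝ → Prop}
    (hP : ∀ᶠ t : ℝ in 𝓝[>] 0, P t) : ∃ t0, XCur U z x (hb y z τ) t0 ∧ P t0 := by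
  obtain ⟨ε, hε, hsub⟩ := mem_nhdsGT_iff_exists_Ioo_subset.1 hx
  obtain ⟨t0, h1, h2⟩ := (hP.and (Ioo_mem_nhdsGT hε)).exists
  refine ⟨t0, ⟨h2.1, ?_, ?_, fun t h3 h4 => h.sub _ (hsub ⟨h3, lt_of_le_of_lt h4 h2.2⟩)⟩, h1⟩
  · have hc : Continuous fun t : ℝ => hb y z τ t := by
      unfold hb
      exact continuous_const.add (continuous_const.mul (continuous_cis.comp (by fun_prop)))
    exact hc.continuousOn
  · unfold hb cis; simp

/-- one-sided conditions on a circle are open -/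
theorem hb_ev {z v : ℂ} {τ : ℝ} (hτ : τ = 1 ∨ τ = -1) (hv : dist v z = 1) {P : ℂ → Prop}
    (h1 : ∀ᶠ t : ℝ in 𝓝[>] 0, P (hb z v τ t)) :
    ∀ᶠ t : ℝ in 𝓝[>] 0, ∀ᶠ q in 𝓝[sphere z 1] (hb z v τ t), P q := by
  obtain ⟨ε, hε, hsub⟩ := mem_nhdsGT_iff_exists_Ioo_subset.1 h1
  filter_upwards [Ioo_mem_nhdsGT hε] with t ht
  rw [eventually_circle (dist_hb hv τ t)]
  have hc : Tendsto (fun s : ℝ => t + τ * s) (𝓝 0) (𝓝 t) := by
    have : Continuous fun s : ℝ => t + τ * s := by fun_prop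
    have h2 := this.tendsto 0
    simpa using h2
  filter_upwards [hc.eventually (Ioo_mem_nhds ht.1 ht.2)] with s hs
  have h2 : P (hb z v τ (t + τ * s)) := hsub hs
  have e : z + (hb z v τ t - z) * cis s = hb z v τ (t + τ * s) := by
    have h3 : τ * (t + τ * s) = τ * t + s := by
      rcases hτ with rfl | rfl <;> ring
    unfold hb
    rw [h3, cis_add394]; ring
  rw [e]; exact h2

/-- two-sided conditions give one-sided ones -/
theorem hb_ev' {z v : ℂ} (τ : ℝ) (hv : dist v z = 1) {P : ℂ → Prop}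
    (h1 : ∀ᶠ q in 𝓝[sphere z 1] v, P q) :
    ∀ᶠ t : ℝ in 𝓝[>] 0, ∀ᶠ q in 𝓝[sphere z 1] (hb z v τ t), P q := by
  have ht : Tendsto (hb z v τ) (𝓝[>] 0) (𝓝[sphere z 1] v) :=
    tendsto_nhdsWithin_iff.2 ⟨tendsto_hb z v τ, Eventually.of_forall fun t => dist_hb hv τ t⟩
  exact ht.eventually (eventually_eventually_nhdsWithin.2 h1)

/-- **Two branches, one colour, a partner between them.** -/
theorem branch_opp (h : Irr U T) {z y y' v : ℂ} {x : Fin k} {τ τ' : ℝ} (hv : dist v z = 1)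
    (hxv : x ∈ Pal U v) (h1 : ∀ᶠ t : ℝ in 𝓝[>] 0, x ∈ T (hb y z τ t))
    (h2 : ∀ᶠ t : ℝ in 𝓝[>] 0, x ∈ T (hb y' z τ' t)) (hs1 : τ * sg y z v < 0)
    (hs2 : 0 < τ' * sg y' z v) : False := by
  obtain ⟨t0, hg, hg1⟩ := h.branch_cur h1 (hb_in hv hs1)
  obtain ⟨t1, hg', hg1'⟩ := h.branch_cur h2 (hb_out hv hs2)
  rw [dist_comm] at hg1 hg1'
  exact h.curve_sign' hg hg' hxv hg1 hg1'

/-- **GAP3.** `T y` a triple, `Q` exact about the antipode, `x` the only colour of `T z` outside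
`T y ∪ Q`: all `x`-partners of `z` are `y` and `2 z - y`. -/
theorem gap3 (h : Irr U T) {z y v : ℂ} {x : Fin k} {Q : Set (Fin k)} (hy : dist y z = 1)
    (h3 : (T y).ncard ≤ 3) (hK : ∀ i ∈ T z, i ∈ T y ∨ i ∈ Q ∨ i = x)
    (hQ : ∀ᶠ q in 𝓝[sphere z 1] (2 * z - y), Q ⊆ Pal U q) (hv : dist v z = 1)
    (hxv : x ∈ Pal U v) (hvy : v ≠ y) (hvy2 : v + y ≠ 2 * z) : False := by
  have hz : dist z y = 1 := by rw [dist_comm]; exact hy
  have hy' : dist (2 * z - y) z = 1 := by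
    rw [dist_eq_norm] at hy ⊢
    rw [← hy, ← norm_neg]; congr 1; ring
  have key : ∀ τ : ℝ, τ = 1 ∨ τ = -1 → ∀ᶠ t : ℝ in 𝓝[>] 0, x ∈ T (hb y z τ t) :=
    fun τ hτ => h.branch_mem hτ hy h3 hK (hb_ev' τ hy' hQ)
  have h1 := key 1 (Or.inl rfl)
  have h2 := key (-1) (Or.inr rfl)
  rcases lt_or_gt_of_ne (sg_ne (z := y) (v := z) (g := v) hz hv hvy hvy2) with h4 | h4
  · exact h.branch_opp hv hxv h1 h2 (by linarith) (by linarith)
  · exact h.branch_opp hv hxv h2 h1 (by linarith) (by linarith)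

/-- **GAP33**, one-sided letters: `P` at `y` and `Q` at `2 z - y`, both on the side `τ`. -/
theorem gap33 (h : Irr U T) {z y v : ℂ} {x : Fin k} {P Q : Set (Fin k)} {τ : ℝ}
    (hτ : τ = 1 ∨ τ = -1) (hy : dist y z = 1)
    (h3 : (T y).ncard ≤ 3) (h3' : (T (2 * z - y)).ncard ≤ 3)
    (hK : ∀ i ∈ T z, i ∈ T y ∨ i ∈ Q ∨ i = x)
    (hK' : ∀ i ∈ T z, i ∈ T (2 * z - y) ∨ i ∈ P ∨ i = x)
    (hQ : ∀ᶠ t : ℝ in 𝓝[>] 0, Q ⊆ Pal U (hb z (2 * z - y) τ t))
    (hP : ∀ᶠ t : ℝ in 𝓝[>] 0, P ⊆ Pal U (hb z y τ t)) (hv : dist v z = 1)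
    (hxv : x ∈ Pal U v) (hvy : v ≠ y) (hvy2 : v + y ≠ 2 * z) : False := by
  have hz : dist z y = 1 := by rw [dist_comm]; exact hy
  have hy' : dist (2 * z - y) z = 1 := by
    rw [dist_eq_norm] at hy ⊢
    rw [← hy, ← norm_neg]; congr 1; ring
  have h1 : ∀ᶠ t : ℝ in 𝓝[>] 0, x ∈ T (hb y z τ t) :=
    h.branch_mem hτ hy h3 hK (hb_ev (P := fun q => Q ⊆ Pal U q) hτ hy' hQ)
  have h2 : ∀ᶠ t : ℝ in 𝓝[>] 0, x ∈ T (hb (2 * z - y) z τ t) := by
    refine h.branch_mem hτ hy' h3' hK' ?_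
    have e : 2 * z - (2 * z - y) = y := by ring
    rw [e]
    exact hb_ev (P := fun q => P ⊆ Pal U q) hτ hy hP
  have e1 : sg (2 * z - y) z v = -sg y z v := by
    unfold sg cr
    simp only [Complex.sub_re, Complex.sub_im, Complex.mul_re, Complex.mul_im, Complex.re_ofNat,
      Complex.im_ofNat]
    ring
  have h0 : τ * sg y z v ≠ 0 := by
    refine mul_ne_zero ?_ (sg_ne (z := y) (v := z) (g := v) hz hv hvy hvy2)
    rcases hτ with rfl | rfl <;> norm_num
  rcases lt_or_gt_of_ne h0 with h4 | h4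
  · exact h.branch_opp hv hxv h1 h2 h4 (by rw [e1]; linarith)
  · exact h.branch_opp hv hxv h2 h1 (by rw [e1]; linarith) h4

end Irr

end Vale.Agent.P032.Six
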